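import Vale.Agent.P161.Final

open MeasureTheory SimpleGraph

namespace Vale.Agent.Results.P161.BelowThreshold

/-- The spin space `{-1, 1}`. -/
abbrev Spin := {x : ℝ // x = -1 ∨ x = 1}

open Classical in
/-- `E(D)`: the edges of `G` with both endpoints in `D`. -/
noncomputable def edgesIn {V : Type*} (G : SimpleGraph V) (D : Finset V) : Finset (Sym2 V) :=
  D.sym2.filter fun e => e ∈ G.edgeSet

/-- The factor `(1 + θ η_u η_v) / 2` of the edge `{u, v}`. -/
noncomputable def edgeFactor {V : Type*} (θ : ℝ) (η : V → Spin) : Sym2 V → ℝ :=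
  Sym2.lift ⟨fun u v => (1 + θ * ((η u : ℝ) * (η v : ℝ))) / 2,
    fun u v => by simp only [mul_comm (η u : ℝ)]⟩

/-- `μ` is the free zero-field Ising measure on the tree `G` at inverse temperature `β`: with
`θ = tanh β`, for every finite connected subtree `D` and every `η`,
`μ(σ|_D = η|_D) = 1/2 ∏_{{u,v} ∈ E(D)} (1 + θ η_u η_v)/2`. -/
def IsFreeIsing {V : Type*} (G : SimpleGraph V) (β : ℝ) (μ : Measure (V → Spin)) : Prop :=
  IsProbabilityMeasure μ ∧
    ∀ D : Finset V, (G.induce (D : Set V)).Connected → ∀ η : V → Spin,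
      μ {σ | ∀ v ∈ D, σ v = η v}
        = ENNReal.ofReal (1 / 2 * ∏ e ∈ edgesIn G D, edgeFactor (Real.tanh β) η e)

/-- The law of i.i.d. uniform `[0,1]` variables `(U_v)_{v ∈ V}`. -/
noncomputable def iidUniform (V : Type*) : Measure (V → unitInterval) :=
  Measure.infinitePi fun _ : V => (volume : Measure unitInterval)

/-- `μ` is a factor of IID over `Aut(G)`: it is the law of `Φ(U)` for a measurable `Φ` with
`Φ(gU) = gΦ(U)` almost surely for each fixed `g ∈ Aut(G)`, where `(gx)_v = x_{g⁻¹v}`. -/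
def IsFactorOfIID {V : Type*} (G : SimpleGraph V) (μ : Measure (V → Spin)) : Prop :=
  ∃ Φ : (V → unitInterval) → (V → Spin), Measurable Φ ∧
    (∀ g : G ≃g G, ∀ᵐ u ∂(iidUniform V),
      Φ (fun v => u (g.symm v)) = fun v => Φ u (g.symm v)) ∧
    (iidUniform V).map Φ = μ

/-- For every `d ≥ 3`, every `d`-regular tree `G` and every `β ≥ 0` with
`tanh β < (d-1)^(-1/2)`, the free Ising measure on `G` (exists, is unique and) is a factor
of IID. -/
theorem result (d : ℕ) (hd : 3 ≤ d) (V : Type*) (G : SimpleGraph V) [G.LocallyFinite]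
    (hG : G.IsTree) (hreg : G.IsRegularOfDegree d) (β : ℝ) (hβ : 0 ≤ β)
    (hθ : Real.tanh β < (Real.sqrt ((d : ℝ) - 1))⁻¹) :
    ∃ μ : Measure (V → Spin), IsFreeIsing G β μ ∧
      (∀ ν : Measure (V → Spin), IsFreeIsing G β ν → ν = μ) ∧ IsFactorOfIID G μ := by
  classical
  have h0 : 0 ≤ Real.tanh β := by
    rw [Real.tanh_eq_sinh_div_cosh]
    exact div_nonneg (Real.sinh_nonneg_iff.mpr hβ) (Real.cosh_pos β).le
  have hd1 : (0 : ℝ) < (d : ℝ) - 1 := by
    have : (3 : ℝ) ≤ d := by exact_mod_cast hd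
    linarith
  have hs : 0 < Real.sqrt ((d : ℝ) - 1) := Real.sqrt_pos.mpr hd1
  have hlt : ((d : ℝ) - 1) * Real.tanh β ^ 2 < 1 := by
    have h1 : Real.tanh β ^ 2 < (Real.sqrt ((d : ℝ) - 1))⁻¹ ^ 2 := pow_lt_pow_left₀ hθ h0 two_ne_zero
    rw [inv_pow, Real.sq_sqrt hd1.le] at h1
    calc ((d : ℝ) - 1) * Real.tanh β ^ 2 < ((d : ℝ) - 1) * ((d : ℝ) - 1)⁻¹ :=
          mul_lt_mul_of_pos_left h1 hd1
      _ = 1 := mul_inv_cancel₀ hd1.ne'
  obtain ⟨Φ, hΦ, hequi, hlaw⟩ := Vale.Agent.P161.main hG hreg (by omega) h0 hlt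
  have hprobI : IsProbabilityMeasure (iidUniform V) := by
    unfold iidUniform
    infer_instance
  have hprob : IsProbabilityMeasure ((iidUniform V).map Φ) :=
    Measure.isProbabilityMeasure_map hΦ.aemeasurable
  refine ⟨(iidUniform V).map Φ, ⟨hprob, ?_⟩, ?_, ⟨Φ, hΦ, hequi, rfl⟩⟩
  · intro D hD η
    exact hlaw D (Vale.Agent.P161.sub_of_connected hD) η
  · intro ν hν
    have := hν.1
    apply Vale.Agent.P161.measure_unique hG
    intro T hT η
    rw [hν.2 T (Vale.Agent.P161.connected_of_sub hT) η]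
    exact (hlaw T hT η).symm

end Vale.Agent.Results.P161.BelowThreshold
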